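import Mathlib

namespace Vale.Agent.Results.P062.StripFive

/-- A cell of the square grid, indexed by its lower-left corner. -/
abbrev Cell : Type := ℤ × ℤ

/-- The hexomino Snaky. -/
def snaky : Finset Cell := {(0, 0), (1, 0), (2, 0), (3, 0), (3, 1), (4, 1)}

/-- The eight signed permutation matrices: `a`, `b` are the signs (each `1` or `-1`),
and `sw` tells whether the two coordinates are exchanged. -/
def turn (sw : Bool) (a b : ℤ) (c : Cell) : Cell :=
  if sw then (a * c.2, b * c.1) else (a * c.1, b * c.2)

/-- Allowed copies `t + R(S)` of Snaky. -/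
def IsCopy (A : Finset Cell) : Prop :=
  ∃ (sw : Bool) (a b : ℤ) (t : Cell), (a = 1 ∨ a = -1) ∧ (b = 1 ∨ b = -1) ∧
    A = snaky.image (fun c => t + turn sw a b c)

/-- `MakerWins board M B`: in the position where Maker owns the cells `M`, Breaker owns the
cells `B` and Maker is to move, Maker can force, after finitely many turns and against every
legal play of Breaker, the ownership of an allowed copy lying inside `board`. -/
inductive MakerWins (board : Set Cell) : Finset Cell → Finset Cell → Prop
  | finish (M B : Finset Cell) (x : Cell) (hx : x ∈ board) (hxM : x ∉ M) (hxB : x ∉ B)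
      (A : Finset Cell) (hA : IsCopy A) (hAb : ∀ c ∈ A, c ∈ board) (hAM : A ⊆ insert x M) :
      MakerWins board M B
  | step (M B : Finset Cell) (x : Cell) (hx : x ∈ board) (hxM : x ∉ M) (hxB : x ∉ B)
      (h : ∀ y ∈ board, y ∉ insert x M → y ∉ B →
        MakerWins board (insert x M) (insert y B)) :
      MakerWins board M B

/-- The horizontal strip of height `h`. -/
def strip (h : ℤ) : Set Cell := {c | 0 ≤ c.2 ∧ c.2 < h}

/-- General pairing lemma. -/
theorem pairing_aux (board : Set Cell) (hinf : board.Infinite) (p : Cell → Cell)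
    (hp : ∀ c, p (p c) = c)
    (hcov : ∀ A, IsCopy A → (∀ c ∈ A, c ∈ board) → ∃ a ∈ A, p a ∈ A ∧ p a ≠ a)
    (M B : Finset Cell) (hw : MakerWins board M B) :
    Disjoint M B → (∀ a ∈ M, p a ≠ a → p a ∈ board → p a ∈ B) → False := by
  induction hw with
  | finish M B x hx hxM hxB A hA hAb hAM =>
    intro hd hinv
    obtain ⟨a, haA, hpaA, hne⟩ := hcov A hA hAb
    have h1 := hAM haA
    have h2 := hAM hpaA
    rw [Finset.mem_insert] at h1 h2
    rcases h1 with h1 | h1
    · subst h1
      rcases h2 with h2 | h2
      · exact hne h2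
      · have := hinv _ h2 (by rw [hp]; exact fun h => hne h.symm) (by rw [hp]; exact hx)
        rw [hp] at this
        exact hxB this
    · have h3 := hinv a h1 hne (hAb _ hpaA)
      rcases h2 with h2 | h2
      · exact hxB (h2 ▸ h3)
      · exact (Finset.disjoint_left.mp hd h2) h3
  | step M B x hx hxM hxB h ih =>
    intro hd hinv
    by_cases hc : p x ≠ x ∧ p x ∈ board ∧ p x ∉ B
    · obtain ⟨hne, hb, hnB⟩ := hc
      have hnM : p x ∉ insert x M := by
        rw [Finset.mem_insert]
        rintro (h1 | h1)
        · exact hne h1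
        · have := hinv _ h1 (by rw [hp]; exact fun h => hne h.symm) (by rw [hp]; exact hx)
          rw [hp] at this
          exact hxB this
      refine ih (p x) hb hnM hnB ?_ ?_
      · rw [Finset.disjoint_left]
        intro c hc1 hc2
        rw [Finset.mem_insert] at hc1 hc2
        rcases hc1 with rfl | hc1
        · rcases hc2 with hc2 | hc2
          · exact hne hc2.symm
          · exact hxB hc2
        · rcases hc2 with rfl | hc2
          · exact hnM (Finset.mem_insert_of_mem hc1)
          · exact (Finset.disjoint_left.mp hd hc1) hc2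
      · intro a ha hne' hb'
        rw [Finset.mem_insert] at ha
        rcases ha with rfl | ha
        · exact Finset.mem_insert_self _ _
        · exact Finset.mem_insert_of_mem (hinv a ha hne' hb')
    · obtain ⟨y, hy, hyn⟩ := hinf.exists_notMem_finset (insert x M ∪ B)
      rw [Finset.mem_union, not_or] at hyn
      refine ih y hy hyn.1 hyn.2 ?_ ?_
      · rw [Finset.disjoint_left]
        intro c hc1 hc2
        rw [Finset.mem_insert] at hc2
        rcases hc2 with rfl | hc2
        · exact hyn.1 hc1
        · rw [Finset.mem_insert] at hc1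
          rcases hc1 with rfl | hc1
          · exact hxB hc2
          · exact (Finset.disjoint_left.mp hd hc1) hc2
      · intro a ha hne' hb'
        rw [Finset.mem_insert] at ha
        rcases ha with rfl | ha
        · by_contra hcon
          exact hc ⟨hne', hb', fun h => hcon (Finset.mem_insert_of_mem h)⟩
        · exact Finset.mem_insert_of_mem (hinv a ha hne' hb')

/-- The pairing used on strips of height at most five: columns `x` with `x % 3 = 1` are paired
horizontally with the next column; in the columns with `x % 3 = 0` rows `0,1` and rows `3,4` are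
paired vertically. -/
def partner (c : Cell) : Cell :=
  if c.1 % 3 = 1 then (c.1 + 1, c.2)
  else if c.1 % 3 = 2 then (c.1 - 1, c.2)
  else if c.2 = 0 then (c.1, 1)
  else if c.2 = 1 then (c.1, 0)
  else if c.2 = 3 then (c.1, 4)
  else if c.2 = 4 then (c.1, 3)
  else c

theorem partner_one (x y : ℤ) (h : x % 3 = 1) : partner (x, y) = (x + 1, y) := by
  simp [partner, h]

theorem partner_two (x y : ℤ) (h : x % 3 = 2) : partner (x, y) = (x - 1, y) := by
  simp [partner, h]

theorem partner_zero (x y : ℤ) (h : x % 3 = 0) : partner (x, y) =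
    if y = 0 then (x, 1) else if y = 1 then (x, 0) else if y = 3 then (x, 4)
    else if y = 4 then (x, 3) else (x, y) := by
  simp [partner, h]

theorem partner_partner (c : Cell) : partner (partner c) = c := by
  obtain ⟨x, y⟩ := c
  have hr : x % 3 = 0 ∨ x % 3 = 1 ∨ x % 3 = 2 := by omega
  rcases hr with hr | hr | hr
  · rw [partner_zero x y hr]
    split_ifs with h0 h1 h3 h4
    · rw [partner_zero x 1 hr, h0]; simp
    · rw [partner_zero x 0 hr, h1]; simp
    · rw [partner_zero x 4 hr, h3]; simp
    · rw [partner_zero x 3 hr, h4]; simp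
    · rw [partner_zero x y hr]; simp [h0, h1, h3, h4]
  · rw [partner_one x y hr, partner_two (x + 1) y (by omega)]; simp
  · rw [partner_two x y hr, partner_one (x - 1) y (by omega)]; simp

theorem mem_copy (sw : Bool) (a b : ℤ) (t c : Cell) (hc : c ∈ snaky) :
    t + turn sw a b c ∈ snaky.image (fun c => t + turn sw a b c) :=
  Finset.mem_image_of_mem _ hc

theorem cover (h : ℤ) (hh : h ≤ 5) (A : Finset Cell) (hA : IsCopy A)
    (hb : ∀ c ∈ A, c ∈ strip h) : ∃ a ∈ A, partner a ∈ A ∧ partner a ≠ a := by
  obtain ⟨sw, a, b, ⟨tx, ty⟩, ha, hb', rfl⟩ := hA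
  have key : ∀ c ∈ snaky, 0 ≤ ((tx, ty) + turn sw a b c).2 ∧ ((tx, ty) + turn sw a b c).2 < h :=
    fun c hc => hb _ (mem_copy sw a b (tx, ty) c hc)
  have k0 := key (0, 0) (by decide)
  have k5 := key (4, 1) (by decide)
  suffices hs : ∃ c ∈ snaky, ∃ c' ∈ snaky,
      partner ((tx, ty) + turn sw a b c) = (tx, ty) + turn sw a b c' ∧
      (tx, ty) + turn sw a b c' ≠ (tx, ty) + turn sw a b c by
    obtain ⟨c, hc, c', hc', h1, h2⟩ := hs
    exact ⟨_, mem_copy sw a b (tx, ty) c hc, h1 ▸ mem_copy sw a b (tx, ty) c' hc', h1 ▸ h2⟩
  have hr : tx % 3 = 0 ∨ tx % 3 = 1 ∨ tx % 3 = 2 := by omega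
  cases sw
  · -- horizontal copies
    simp only [turn, Bool.false_eq_true, if_false, Prod.mk_add_mk] at k0 k5 ⊢
    rcases ha with rfl | rfl
    · rcases hr with hr | hr | hr
      · refine ⟨(1, 0), by decide, (2, 0), by decide, ?_, ?_⟩
        · rw [partner_one _ _ (by omega)]; ext <;> simp; omega
        · simp
      · refine ⟨(0, 0), by decide, (1, 0), by decide, ?_, ?_⟩
        · rw [partner_one _ _ (by omega)]; ext <;> simp
        · simp
      · refine ⟨(2, 0), by decide, (3, 0), by decide, ?_, ?_⟩
        · rw [partner_one _ _ (by omega)]; ext <;> simp; omega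
        · simp
    · rcases hr with hr | hr | hr
      · refine ⟨(1, 0), by decide, (2, 0), by decide, ?_, ?_⟩
        · rw [partner_two _ _ (by omega)]; ext <;> simp; omega
        · simp
      · refine ⟨(2, 0), by decide, (3, 0), by decide, ?_, ?_⟩
        · rw [partner_two _ _ (by omega)]; ext <;> simp; omega
        · simp
      · refine ⟨(0, 0), by decide, (1, 0), by decide, ?_, ?_⟩
        · rw [partner_two _ _ (by omega)]; ext <;> simp; omega
        · simp
  · -- vertical copies
    simp only [turn, if_true, Prod.mk_add_mk] at k0 k5 ⊢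
    rcases hb' with rfl | rfl
    · have hty : ty = 0 := by omega
      subst hty
      rcases hr with hr | hr | hr
      · refine ⟨(0, 0), by decide, (1, 0), by decide, ?_, ?_⟩
        · rw [partner_zero _ _ (by omega)]; simp
        · simp
      · rcases ha with rfl | rfl
        · refine ⟨(3, 0), by decide, (3, 1), by decide, ?_, ?_⟩
          · rw [partner_one _ _ (by omega)]; simp
          · simp
        · refine ⟨(3, 1), by decide, (4, 1), by decide, ?_, ?_⟩
          · rw [partner_zero _ _ (by omega)]; simp
          · simp
      · rcases ha with rfl | rfl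
        · refine ⟨(3, 1), by decide, (4, 1), by decide, ?_, ?_⟩
          · rw [partner_zero _ _ (by omega)]; simp
          · simp
        · refine ⟨(3, 0), by decide, (3, 1), by decide, ?_, ?_⟩
          · rw [partner_two _ _ (by omega)]; ext <;> simp; omega
          · simp
    · have hty : ty = 4 := by omega
      subst hty
      rcases hr with hr | hr | hr
      · refine ⟨(0, 0), by decide, (1, 0), by decide, ?_, ?_⟩
        · rw [partner_zero _ _ (by omega)]; simp
        · simp
      · rcases ha with rfl | rfl
        · refine ⟨(3, 0), by decide, (3, 1), by decide, ?_, ?_⟩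
          · rw [partner_one _ _ (by omega)]; simp
          · simp
        · refine ⟨(3, 1), by decide, (4, 1), by decide, ?_, ?_⟩
          · rw [partner_zero _ _ (by omega)]; simp
          · simp
      · rcases ha with rfl | rfl
        · refine ⟨(3, 1), by decide, (4, 1), by decide, ?_, ?_⟩
          · rw [partner_zero _ _ (by omega)]; simp
          · simp
        · refine ⟨(3, 0), by decide, (3, 1), by decide, ?_, ?_⟩
          · rw [partner_two _ _ (by omega)]; ext <;> simp; omega
          · simp

theorem strip_infinite (h : ℤ) (hh : 0 < h) : (strip h).Infinite := by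
  have hinj : Function.Injective (fun n : ℤ => ((n, 0) : Cell)) := by
    intro m n hmn
    exact (Prod.mk.inj hmn).1
  refine Set.infinite_of_injective_forall_mem hinj ?_
  intro n
  exact ⟨le_refl _, hh⟩

/-- On every infinite horizontal strip `ℤ × {0, …, h-1}` of height `h ≤ 5` Maker has no winning
strategy in the Snaky achievement game (no handicap, empty initial board). -/
theorem result : ∀ h : ℤ, h ≤ 5 → ¬ MakerWins (strip h) ∅ ∅ := by
  intro h hh hw
  by_cases h0 : 0 < h
  · exact pairing_aux (strip h) (strip_infinite h h0) partner partner_partner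
      (fun A hA hb => cover h hh A hA hb) ∅ ∅ hw (Finset.disjoint_empty_left _)
      (fun a ha => absurd ha (Finset.notMem_empty a))
  · obtain ⟨x, hx⟩ : ∃ x, x ∈ strip h := by
      cases hw with
      | finish _ _ x hx => exact ⟨x, hx⟩
      | step _ _ x hx => exact ⟨x, hx⟩
    exact h0 (lt_of_le_of_lt hx.1 hx.2)

end Vale.Agent.Results.P062.StripFive
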